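import Mathlib

/-! Row 110 (window version): functional calculus, domination, closed ideals. -/

set_option autoImplicit false
set_option linter.unusedSectionVars false

namespace Crest.Agent.R110w

open Filter Topology

variable {A : Type*} [CStarAlgebra A] [PartialOrder A] [StarOrderedRing A]

/-! ### functional calculus -/

theorem fc_le {f g : ℝ → ℝ} {D : A} (hD : 0 ≤ D) (hf : Continuous f) (hg : Continuous g)
    (h : ∀ t, 0 ≤ t → f t ≤ g t) : cfc f D ≤ cfc g D :=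
  cfc_mono (fun t ht => h t (spectrum_nonneg_of_nonneg hD ht)) hf.continuousOn hg.continuousOn

theorem fc_mul {f g : ℝ → ℝ} (D : A) (hf : Continuous f) (hg : Continuous g) :
    cfc f D * cfc g D = cfc (fun t => f t * g t) D :=
  (cfc_mul f g D hf.continuousOn hg.continuousOn).symm

theorem fc_add {f g : ℝ → ℝ} (D : A) (hf : Continuous f) (hg : Continuous g) :
    cfc f D + cfc g D = cfc (fun t => f t + g t) D :=
  (cfc_add (a := D) f g hf.continuousOn hg.continuousOn).symm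

theorem fc_sub {f g : ℝ → ℝ} (D : A) (hf : Continuous f) (hg : Continuous g) :
    cfc f D - cfc g D = cfc (fun t => f t - g t) D :=
  (cfc_sub f g D hf.continuousOn hg.continuousOn).symm

theorem fc_smul {f : ℝ → ℝ} (c : ℝ) (D : A) (hf : Continuous f) :
    c • cfc f D = cfc (fun t => c * f t) D :=
  (cfc_const_mul c f D hf.continuousOn).symm

theorem fc_id {D : A} (hD : 0 ≤ D) : cfc (fun t : ℝ => t) D = D := cfc_id' ℝ D

theorem fc_one {D : A} (hD : 0 ≤ D) : cfc (fun _ : ℝ => (1 : ℝ)) D = 1 := cfc_const_one ℝ D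

/-- `(D - η)₊` -/
noncomputable def pp (D : A) (η : ℝ) : A := cfc (fun t : ℝ => max (t - η) 0) D
/-- `(max D η)⁻¹` -/
noncomputable def ga (D : A) (η : ℝ) : A := cfc (fun t : ℝ => (max t η)⁻¹) D
/-- `min 1 (D / η)` -/
noncomputable def rp (D : A) (η : ℝ) : A := cfc (fun t : ℝ => t * (max t η)⁻¹) D

theorem c_ga {η : ℝ} (hη : 0 < η) : Continuous fun t : ℝ => (max t η)⁻¹ :=
  Continuous.inv₀ (by fun_prop) fun t => (lt_of_lt_of_le hη (le_max_right _ _)).ne'

theorem c_rp {η : ℝ} (hη : 0 < η) : Continuous fun t : ℝ => t * (max t η)⁻¹ :=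
  continuous_id.mul (c_ga hη)

theorem c_pp (η : ℝ) : Continuous fun t : ℝ => max (t - η) 0 := by fun_prop

theorem pp_nonneg (D : A) (η : ℝ) : 0 ≤ pp D η := cfc_nonneg fun _ _ => le_max_right _ _

theorem le_pp {D : A} (hD : 0 ≤ D) (η : ℝ) : D ≤ pp D η + η • (1 : A) := by
  have h := fc_le (g := fun t => max (t - η) 0 + η * 1) hD continuous_id (by fun_prop)
    fun t _ => by simp only [id]; linarith [le_max_left (t - η) 0]
  rw [← fc_add D (c_pp η) continuous_const, ← fc_smul η D continuous_const, fc_one hD] at h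
  rwa [cfc_id ℝ D] at h

theorem pp_mono {D : A} (hD : 0 ≤ D) {η η' : ℝ} (h : η ≤ η') : pp D η' ≤ pp D η :=
  fc_le hD (c_pp _) (c_pp _) fun t _ => max_le_max (by linarith) le_rfl

theorem pp_le {D : A} (hD : 0 ≤ D) {η : ℝ} (hη : 0 ≤ η) : pp D η ≤ D := by
  have h := fc_le hD (c_pp η) continuous_id fun t ht => max_le (by simp only [id]; linarith) ht
  rwa [cfc_id ℝ D] at h

theorem norm_sub_pp {D : A} (hD : 0 ≤ D) {η : ℝ} (hη : 0 ≤ η) : ‖D - pp D η‖ ≤ η := by
  rw [CStarAlgebra.norm_le_iff_le_algebraMap _ hη (sub_nonneg.2 (pp_le hD hη)),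
    Algebra.algebraMap_eq_smul_one, sub_le_iff_le_add']
  exact le_pp hD η

theorem pp_conj {D : A} (hD : 0 ≤ D) (η : ℝ) (k : ℕ) (a δ κ : ℝ)
    (h : ∀ t, η < t → κ ≤ t ^ k - a * t - δ) :
    κ • (pp D η * pp D η) ≤ pp D η * (D ^ k - a • D - δ • (1 : A)) * pp D η := by
  have e : D ^ k - a • D - δ • (1 : A) = cfc (fun t : ℝ => t ^ k - a * t - δ * 1) D := by
    rw [← fc_sub D (by fun_prop) (by fun_prop), ← fc_sub D (by fun_prop) (by fun_prop),
      ← fc_smul a D (by fun_prop), ← fc_smul δ D (by fun_prop), fc_id hD, fc_one hD,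
      cfc_pow_id D k]
  unfold pp
  rw [e, fc_mul D (c_pp η) (c_pp η), fc_mul D (c_pp η) (by fun_prop),
    fc_mul D (by fun_prop) (c_pp η), fc_smul κ D (by fun_prop)]
  refine fc_le hD (by fun_prop) (by fun_prop) fun t _ => ?_
  rcases le_or_gt t η with h1 | h1
  · rw [max_eq_right (by linarith)]; simp
  · have := h t h1
    nlinarith [mul_self_nonneg (max (t - η) 0)]

theorem rp_eq {D : A} (hD : 0 ≤ D) {η : ℝ} (hη : 0 < η) : rp D η = D * ga D η := by
  unfold rp ga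
  rw [← fc_mul D continuous_id' (c_ga hη), fc_id hD]

theorem rp_aux {η t : ℝ} (hη : 0 < η) (ht : 0 ≤ t) :
    0 ≤ t * (max t η)⁻¹ ∧ t * (max t η)⁻¹ ≤ 1 ∧ t * (max t η)⁻¹ ≤ η⁻¹ * t ∧
      (η ≤ t → t * (max t η)⁻¹ = 1) := by
  have h1 : 0 < max t η := lt_of_lt_of_le hη (le_max_right _ _)
  refine ⟨by positivity, ?_, ?_, fun h => ?_⟩
  · rw [← div_eq_mul_inv, div_le_one h1]; exact le_max_left _ _
  · rw [mul_comm]
    exact mul_le_mul_of_nonneg_right (inv_anti₀ hη (le_max_right _ _)) ht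
  · rw [max_eq_left h, mul_inv_cancel₀ (by linarith)]

theorem rp_nonneg {D : A} (hD : 0 ≤ D) {η : ℝ} (hη : 0 < η) : 0 ≤ rp D η :=
  cfc_nonneg fun _ ht => (rp_aux hη (spectrum_nonneg_of_nonneg hD ht)).1

theorem rp_le_one {D : A} (hD : 0 ≤ D) {η : ℝ} (hη : 0 < η) : rp D η ≤ 1 := by
  rw [← fc_one hD]
  exact fc_le hD (c_rp hη) continuous_const fun t ht => (rp_aux hη ht).2.1

theorem rp_pp {D : A} (hD : 0 ≤ D) {η : ℝ} (hη : 0 < η) : rp D η * pp D η = pp D η := by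
  unfold rp pp
  rw [fc_mul D (c_rp hη) (c_pp η)]
  refine cfc_congr fun t ht => ?_
  rcases le_total t η with h1 | h1
  · simp only [max_eq_right (sub_nonpos.2 h1), mul_zero]
  · simp only [(rp_aux hη (spectrum_nonneg_of_nonneg hD ht)).2.2.2 h1, one_mul]

theorem rp_le {D : A} (hD : 0 ≤ D) {η : ℝ} (hη : 0 < η) : rp D η * rp D η ≤ η⁻¹ • D := by
  conv_rhs => rw [← fc_id hD]
  unfold rp
  rw [fc_mul D (c_rp hη) (c_rp hη), fc_smul _ D (by fun_prop)]
  refine fc_le hD ((c_rp hη).mul (c_rp hη)) (by fun_prop) fun t ht => ?_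
  obtain ⟨h1, h2, h3, -⟩ := rp_aux hη ht
  nlinarith

theorem rp_cut {D : A} (hD : 0 ≤ D) {η : ℝ} (hη : 0 < η) :
    (1 - rp D η) * D * (1 - rp D η) ≤ η • (1 : A) := by
  have c1 : Continuous fun t : ℝ => 1 - t * (max t η)⁻¹ := continuous_const.sub (c_rp hη)
  have c2 : Continuous fun t : ℝ => (1 - t * (max t η)⁻¹) * t := c1.mul continuous_id'
  have e : 1 - rp D η = cfc (fun t : ℝ => 1 - t * (max t η)⁻¹) D := by
    unfold rp
    rw [← fc_sub D continuous_const (c_rp hη), fc_one hD]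
  have e2 : (1 - rp D η) * D * (1 - rp D η) = cfc (fun t : ℝ =>
      (1 - t * (max t η)⁻¹) * t * (1 - t * (max t η)⁻¹)) D := by
    rw [← fc_mul D c2 c1, ← fc_mul D c1 continuous_id', fc_id hD, ← e]
  rw [e2, ← fc_one hD, fc_smul η D continuous_const]
  refine fc_le hD (c2.mul c1) continuous_const fun t ht => ?_
  obtain ⟨h1, h2, -, h4⟩ := rp_aux hη ht
  rcases le_total t η with h | h
  · have : (1 - t * (max t η)⁻¹) * (1 - t * (max t η)⁻¹) ≤ 1 := by nlinarith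
    nlinarith
  · rw [h4 h]; simp [hη.le]

theorem ex_half {D : A} (hD : 0 ≤ D) {η : ℝ} (hη : 0 < η) :
    ∃ g : A, IsSelfAdjoint g ∧ g * D * g = rp D η := by
  have c1 : Continuous fun t : ℝ => √(max t η)⁻¹ := (c_ga hη).sqrt
  refine ⟨cfc (fun t : ℝ => √(max t η)⁻¹) D, cfc_predicate _ _, ?_⟩
  conv_lhs => enter [1, 2]; rw [← fc_id hD]
  have c2 : Continuous fun t : ℝ => √(max t η)⁻¹ * t := c1.mul continuous_id'
  rw [fc_mul D c1 continuous_id', fc_mul D c2 c1]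
  refine cfc_congr fun t _ => ?_
  have h1 : 0 ≤ (max t η)⁻¹ := inv_nonneg.2 (hη.le.trans (le_max_right _ _))
  rw [mul_right_comm, Real.mul_self_sqrt h1, mul_comm]

theorem ex_sqrt {D : A} (hD : 0 ≤ D) : ∃ y : A, 0 ≤ y ∧ star y = y ∧ y * y = D :=
  ⟨CFC.sqrt D, CFC.sqrt_nonneg D, (IsSelfAdjoint.of_nonneg (CFC.sqrt_nonneg D)).star_eq,
    CFC.sqrt_mul_sqrt_self D⟩

theorem ex_parts {d : A} (hd : IsSelfAdjoint d) :
    ∃ p q : A, 0 ≤ p ∧ 0 ≤ q ∧ d = p - q ∧ p * q = 0 ∧ q * p = 0 :=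
  ⟨d⁺, d⁻, CFC.posPart_nonneg d, CFC.negPart_nonneg d, (CFC.posPart_sub_negPart d).symm,
    CFC.posPart_mul_negPart d, CFC.negPart_mul_posPart d⟩

/-! ### order and norm -/

theorem sa {D : A} (hD : 0 ≤ D) : star D = D := (IsSelfAdjoint.of_nonneg hD).star_eq

theorem smul_mono {c : ℝ} (hc : 0 ≤ c) {a b : A} (h : a ≤ b) : c • a ≤ c • b :=
  smul_le_smul_of_nonneg_left h hc

theorem le_of_norm {X Y : A} {δ : ℝ} (hX : IsSelfAdjoint X) (hY : IsSelfAdjoint Y)
    (h : ‖X - Y‖ ≤ δ) : X ≤ Y + δ • (1 : A) := by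
  have := (hX.sub hY).le_algebraMap_norm_self
  rw [Algebra.algebraMap_eq_smul_one, sub_le_iff_le_add'] at this
  exact this.trans (add_le_add le_rfl (smul_le_smul_of_nonneg_right h zero_le_one))

theorem conj_le (a ξ : A) : star (a * ξ) * (a * ξ) ≤ ‖a‖ ^ 2 • (star ξ * ξ) := by
  have := CStarAlgebra.star_left_conjugate_le_norm_smul (a := ξ) (IsSelfAdjoint.star_mul_self a)
  rw [CStarRing.norm_star_mul_self, ← sq] at this
  simpa only [star_mul, mul_assoc] using this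

theorem conj_le' {a : A} {c : ℝ} (h : ‖a‖ ≤ c) (ξ : A) :
    star (a * ξ) * (a * ξ) ≤ c ^ 2 • (star ξ * ξ) :=
  (conj_le a ξ).trans (smul_le_smul_of_nonneg_right
    (pow_le_pow_left₀ (norm_nonneg _) h 2) (star_mul_self_nonneg ξ))

theorem norm_of_le {u y : A} {c : ℝ} (hc : 0 ≤ c) (h : star u * u ≤ c ^ 2 • (star y * y)) :
    ‖u‖ ≤ c * ‖y‖ := by
  have := CStarAlgebra.norm_le_norm_of_nonneg_of_le (star_mul_self_nonneg u) h
  rw [norm_smul, CStarRing.norm_star_mul_self, CStarRing.norm_star_mul_self, Real.norm_eq_abs,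
    abs_of_nonneg (sq_nonneg c)] at this
  exact (abs_le_of_sq_le_sq' (by nlinarith) (by positivity)).2

theorem add_sq_le (a b : A) :
    star (a + b) * (a + b) ≤ (2 : ℝ) • (star a * a) + (2 : ℝ) • (star b * b) := by
  rw [← sub_nonneg]
  convert star_mul_self_nonneg (a - b) using 1
  simp only [star_add, star_sub, two_smul]
  noncomm_ring

theorem norm_le_one {e : A} (h0 : 0 ≤ e) (h1 : e ≤ 1) : ‖e‖ ≤ 1 :=
  (CStarAlgebra.norm_le_one_iff_of_nonneg e h0).2 h1

/-! ### domination -/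

/-- `D ≤ c E` -/
def Le (D E : A) : Prop := ∃ c : ℝ, 0 ≤ c ∧ D ≤ c • E
/-- `y y* ≤ c E` -/
def Dm (y E : A) : Prop := Le (y * star y) E

theorem Le.of_le {D E : A} (h : D ≤ E) : Le D E := ⟨1, zero_le_one, by rwa [one_smul]⟩
theorem Le.rfl {D : A} : Le D D := .of_le le_rfl
theorem Le.trans {D E F : A} (h : Le D E) (h' : Le E F) : Le D F := by
  obtain ⟨c, hc, h⟩ := h
  obtain ⟨c', hc', h'⟩ := h'
  exact ⟨c * c', mul_nonneg hc hc', h.trans (by rw [mul_smul]; exact smul_mono hc h')⟩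
theorem Le.add {D D' E : A} (h : Le D E) (h' : Le D' E) : Le (D + D') E := by
  obtain ⟨c, hc, h⟩ := h
  obtain ⟨c', hc', h'⟩ := h'
  exact ⟨c + c', add_nonneg hc hc', by rw [add_smul]; exact add_le_add h h'⟩
theorem Le.smul {D : A} {c : ℝ} (hc : 0 ≤ c) : Le (c • D) D := ⟨c, hc, le_rfl⟩
theorem Le.left {D D' : A} (h : 0 ≤ D') : Le D (D + D') := .of_le (le_add_of_nonneg_right h)
theorem Le.right {D D' : A} (h : 0 ≤ D) : Le D' (D + D') := .of_le (le_add_of_nonneg_left h)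
theorem le_pp' {D : A} (hD : 0 ≤ D) {η : ℝ} (hη : 0 < η) : Le (pp D η) D := .of_le (pp_le hD hη.le)

theorem Dm.trans {y E F : A} (h : Dm y E) (h' : Le E F) : Dm y F := Le.trans h h'
theorem Dm.self (y : A) : Dm y (y * star y) := Le.rfl
theorem Dm.mul {y E : A} (h : Dm y E) (d : A) : Dm (y * d) E := by
  refine Le.trans ⟨‖star d‖ ^ 2, sq_nonneg _, ?_⟩ h
  simpa only [star_mul, star_star] using conj_le (star d) (star y)
theorem Dm.add {y z E : A} (h : Dm y E) (h' : Dm z E) : Dm (y + z) E := by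
  refine Le.trans (.of_le ?_) (((Le.smul zero_le_two).trans h).add ((Le.smul zero_le_two).trans h'))
  simpa only [star_add, star_star] using add_sq_le (star y) (star z)
theorem Dm.sub {y z E : A} (h : Dm y E) (h' : Dm z E) : Dm (y - z) E := by
  simpa only [mul_neg, mul_one, ← sub_eq_add_neg] using h.add (h'.mul (-1))
theorem Dm.sqrt {y D : A} (h1 : star y = y) (h2 : y * y = D) : Dm y D := by
  unfold Dm; rw [h1, h2]; exact Le.rfl
theorem Le.dm {D E : A} (hD : 0 ≤ D) (h : Le D E) : Dm D E := by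
  obtain ⟨y, -, h1, h2⟩ := ex_sqrt hD
  rw [← h2]
  exact ((Dm.sqrt h1 h2).trans h).mul y
theorem Dm.refl {D : A} (hD : 0 ≤ D) : Dm D D := Le.rfl.dm hD
theorem dm_rp {D : A} (hD : 0 ≤ D) {η : ℝ} (hη : 0 < η) : Dm (rp D η) D :=
  ⟨η⁻¹, by positivity, by rw [sa (rp_nonneg hD hη)]; exact rp_le hD hη⟩
theorem Dm.conj {y E : A} (h : Dm y E) {m : A} (hm : 0 ≤ m) : Le (y * m * star y) E := by
  obtain ⟨r, -, h1, h2⟩ := ex_sqrt hm
  have := h.mul r
  unfold Dm at this
  rwa [star_mul, h1, mul_assoc, ← mul_assoc r, h2, ← mul_assoc] at this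

theorem Dm.ann {y E n : A} (h : Dm y E) (hn : n * E = 0) : n * y = 0 := by
  obtain ⟨c, -, h⟩ := h
  have h1 := star_right_conjugate_le_conjugate h n
  rw [mul_smul_comm, hn, smul_zero, zero_mul] at h1
  rw [← CStarRing.mul_star_self_eq_zero_iff]
  refine le_antisymm ?_ (mul_star_self_nonneg _)
  simpa only [star_mul, mul_assoc] using h1

theorem Dm.unit {y E e : A} (h : Dm y E) (he : e * E = E) : e * y = y := by
  have := h.ann (n := 1 - e) (by rw [sub_mul, one_mul, he, sub_self])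
  rw [sub_mul, one_mul, sub_eq_zero] at this
  exact this.symm

theorem Dm.orth {x y E F : A} (hx : Dm x E) (hy : Dm y F) (hF : 0 ≤ F) (h : F * E = 0) :
    star x * y = 0 := by
  refine hy.ann ?_
  have := congrArg star (hx.ann h)
  rwa [star_mul, sa hF, star_zero] at this

theorem Dm.apx {y b : A} (hb : 0 ≤ b) (h : Dm y b) : y ∈ closure (Set.range fun g => b * g) := by
  obtain ⟨c, hc, h⟩ := h
  rw [Metric.mem_closure_iff]
  intro ε hε
  have hη : 0 < (ε / 2) ^ 2 / (c + 1) := by positivity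
  refine ⟨_, ⟨ga b ((ε / 2) ^ 2 / (c + 1)) * y, rfl⟩, ?_⟩
  simp only
  rw [dist_eq_norm, ← mul_assoc, ← rp_eq hb hη]
  have hs : star (1 - rp b ((ε / 2) ^ 2 / (c + 1))) = 1 - rp b ((ε / 2) ^ 2 / (c + 1)) := by
    rw [star_sub, star_one, sa (rp_nonneg hb hη)]
  have h1 := star_right_conjugate_le_conjugate h (1 - rp b ((ε / 2) ^ 2 / (c + 1)))
  rw [mul_smul_comm, smul_mul_assoc, hs] at h1
  have h2 := h1.trans (smul_mono hc (rp_cut hb hη))
  have h3 : ‖star ((1 - rp b ((ε / 2) ^ 2 / (c + 1))) * y)‖ ≤ (ε / 2) * ‖(1 : A)‖ := by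
    refine norm_of_le (by positivity) ?_
    rw [star_star, star_mul, hs, star_one, mul_one]
    refine le_trans (le_of_eq (by simp only [mul_assoc])) (h2.trans ?_)
    rw [smul_smul]
    refine smul_le_smul_of_nonneg_right ?_ zero_le_one
    rw [← mul_div_assoc, div_le_iff₀ (by positivity)]
    nlinarith [sq_nonneg (ε / 2)]
  rw [norm_star, sub_mul, one_mul] at h3
  have h4 : ‖(1 : A)‖ ≤ 1 := norm_le_one zero_le_one le_rfl
  nlinarith

theorem Dm.apx' {y X : A} (h : Dm y (X * star X)) : y ∈ closure (Set.range fun d => X * d) := by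
  refine closure_mono ?_ (h.apx (mul_star_self_nonneg X))
  rintro _ ⟨g, rfl⟩
  exact ⟨star X * g, by simp only [mul_assoc]⟩

/-! ### closed ideals -/

/-- closed two-sided ideals -/
structure CI (S : Set A) : Prop where
  closed : IsClosed S
  add : ∀ {x y}, x ∈ S → y ∈ S → x + y ∈ S
  ml : ∀ {x} (a : A), x ∈ S → a * x ∈ S
  mr : ∀ {x} (a : A), x ∈ S → x * a ∈ S

/-- the closed ideal generated by `h` -/
def Id (h : A) : Set A := {x | ∀ S : Set A, CI S → h ∈ S → x ∈ S}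

theorem Id.self (h : A) : h ∈ Id h := fun _ _ h => h
theorem Id.ci (h : A) : CI (Id h) where
  closed := by
    have : Id h = ⋂ S : Set A, ⋂ (_ : CI S), ⋂ (_ : h ∈ S), S := by
      ext x; simp [Id]
    rw [this]
    exact isClosed_iInter fun S => isClosed_iInter fun hS => isClosed_iInter fun _ => hS.closed
  add := fun hx hy S hS h => hS.add (hx S hS h) (hy S hS h)
  ml := fun a hx S hS h => hS.ml a (hx S hS h)
  mr := fun a hx S hS h => hS.mr a (hx S hS h)
theorem Id.trans {x h k : A} (h1 : x ∈ Id h) (h2 : h ∈ Id k) : x ∈ Id k := h1 _ (Id.ci k) h2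

namespace CI
variable {S : Set A} (hS : CI S)
include hS

theorem smul {x : A} (c : ℝ) (h : x ∈ S) : c • x ∈ S := by
  have := hS.ml (c • (1 : A)) h
  rwa [smul_mul_assoc, one_mul] at this

theorem dm {y b : A} (hb : 0 ≤ b) (h : b ∈ S) (hy : Dm y b) : y ∈ S := by
  refine hS.closed.closure_subset_iff.2 ?_ (hy.apx hb)
  rintro _ ⟨g, rfl⟩
  exact hS.mr g h

theorem le {a b : A} (ha : 0 ≤ a) (hb : 0 ≤ b) (h : b ∈ S) (hab : Le a b) : a ∈ S :=
  hS.dm hb h (hab.dm ha)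

theorem le' {a b : A} (ha : 0 ≤ a) (h : b ∈ S) (hab : a ≤ b) : a ∈ S :=
  hS.le ha (ha.trans hab) h (.of_le hab)

theorem root {y : A} (h : y * star y ∈ S) : y ∈ S := hS.dm (mul_star_self_nonneg y) h (Dm.self y)

theorem star {y : A} (h : y ∈ S) : star y ∈ S := hS.root (by rw [star_star]; exact hS.ml _ h)

theorem root' {y : A} (h : Star.star y * y ∈ S) : y ∈ S := by
  have := hS.star (hS.root (y := Star.star y) (by rwa [star_star]))
  rwa [star_star] at this

theorem pp_mem {D q : A} (hD : 0 ≤ D) (hq : q ∈ S) {η : ℝ} (k : ℕ) (a δ κ : ℝ) (hκ : 0 < κ)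
    (h : ∀ t, η < t → κ ≤ t ^ k - a * t - δ) (hle : D ^ k ≤ q + a • D + δ • (1 : A)) :
    pp D η ∈ S := by
  have h1 := pp_conj hD η k a δ κ h
  have h2 : D ^ k - a • D - δ • (1 : A) ≤ q := by
    rw [sub_le_iff_le_add, sub_le_iff_le_add, add_right_comm]; exact hle
  have h3 := h1.trans (conjugate_le_conjugate_of_nonneg h2 (pp_nonneg D η))
  have h4 : pp D η * pp D η ≤ κ⁻¹ • (pp D η * q * pp D η) := by
    have := smul_mono (inv_nonneg.2 hκ.le) h3
    rwa [smul_smul, inv_mul_cancel₀ hκ.ne', one_smul] at this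
  refine hS.root ?_
  rw [sa (pp_nonneg D η)]
  refine hS.le' ?_ (hS.smul _ (hS.mr _ (hS.ml _ hq))) h4
  simpa only [sa (pp_nonneg D η)] using star_mul_self_nonneg (pp D η)

theorem pp_mem1 {D q : A} (hD : 0 ≤ D) (hq : q ∈ S) {η δ : ℝ} (h : δ < η)
    (hle : D ≤ q + δ • (1 : A)) : pp D η ∈ S :=
  hS.pp_mem hD hq 1 0 δ (η - δ) (by linarith) (fun t ht => by linarith)
    (by rwa [pow_one, zero_smul, add_zero])

theorem of_pp {D : A} (hD : 0 ≤ D) (h : ∀ η, 0 < η → pp D η ∈ S) : D ∈ S := by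
  refine hS.closed.closure_subset (Metric.mem_closure_iff.2 fun ε hε => ?_)
  refine ⟨_, h (ε / 2) (by positivity), ?_⟩
  rw [dist_eq_norm]
  exact (norm_sub_pp hD (by positivity)).trans_lt (by linarith)

theorem lim {W Z q : A} (hW : 0 ≤ W) (hq : q ∈ S) (hZ : IsSelfAdjoint Z) (hle : W ≤ Z + q)
    (h : Z ∈ closure {x | IsSelfAdjoint x ∧ ∃ q ∈ S, x ≤ q}) : W ∈ S := by
  refine hS.of_pp hW fun η hη => ?_
  obtain ⟨x, ⟨hx, q', hq', hxq⟩, hd⟩ := Metric.mem_closure_iff.1 h (η / 2) (by positivity)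
  rw [dist_eq_norm] at hd
  refine hS.pp_mem1 hW (hS.add hq' hq) (δ := η / 2) (by linarith) (hle.trans ?_)
  rw [add_right_comm]
  exact add_le_add ((le_of_norm hZ hx hd.le).trans (add_le_add hxq le_rfl)) le_rfl

end CI

theorem Dm.id {y b : A} (hy : Dm y b) (hb : 0 ≤ b) : y ∈ Id b := (Id.ci b).dm hb (Id.self b) hy
theorem Le.id {a b : A} (h : Le a b) (ha : 0 ≤ a) (hb : 0 ≤ b) : a ∈ Id b := (h.dm ha).id hb

end Crest.Agent.R110w
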