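import Crest.Agent.R110w.A

/-! Row 110 (window version): compact containment, embeddings, splittings, windows. -/

set_option autoImplicit false
set_option linter.unusedSectionVars false

namespace Crest.Agent.R110w

open Filter Topology

variable {A : Type*} [CStarAlgebra A] [PartialOrder A] [StarOrderedRing A]

/-- compact containment -/
def Cp (k E : A) : Prop := ∃ η : ℝ, 0 < η ∧ k ∈ Id (pp E η)

theorem pp_id {D : A} (hD : 0 ≤ D) {η η' : ℝ} (h : η ≤ η') : pp D η' ∈ Id (pp D η) :=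
  (Le.of_le (pp_mono hD h)).id (pp_nonneg _ _) (pp_nonneg _ _)

theorem Cp.id {k E : A} (h : Cp k E) (hE : 0 ≤ E) : k ∈ Id E := by
  obtain ⟨η, hη, h⟩ := h
  exact Id.trans h ((le_pp' hE hη).id (pp_nonneg _ _) hE)

theorem Cp.of_id {l k E : A} (h1 : l ∈ Id k) (h : Cp k E) : Cp l E := by
  obtain ⟨η, hη, h⟩ := h
  exact ⟨η, hη, Id.trans h1 h⟩

theorem cp_pp {p h : A} (hp : 0 ≤ p) (hh : 0 ≤ h) (hm : p ∈ Id h) {δ : ℝ} (hδ : 0 < δ) :
    Cp (pp p δ) h := by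
  have key : p ∈ closure {x | Cp x h} := by
    refine hm _ ⟨isClosed_closure, fun hx hy => ?_, fun a hx => ?_, fun a hx => ?_⟩ ?_
    · refine map_mem_closure₂ continuous_add hx hy ?_
      rintro x ⟨η, hη, hx⟩ y ⟨η', hη', hy⟩
      exact ⟨min η η', lt_min hη hη', (Id.ci _).add (Id.trans hx (pp_id hh (min_le_left _ _)))
        (Id.trans hy (pp_id hh (min_le_right _ _)))⟩
    · refine map_mem_closure (continuous_const_mul a) hx ?_
      rintro x ⟨η, hη, hx⟩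
      exact ⟨η, hη, (Id.ci _).ml a hx⟩
    · refine map_mem_closure (f := fun x : A => x * a) (continuous_mul_const a) hx ?_
      rintro x ⟨η, hη, hx⟩
      exact ⟨η, hη, (Id.ci _).mr a hx⟩
    · refine Metric.mem_closure_iff.2 fun ε hε => ⟨pp h (ε / 2), ⟨_, half_pos hε, Id.self _⟩, ?_⟩
      rw [dist_eq_norm]
      exact (norm_sub_pp hh (by positivity)).trans_lt (by linarith)
  obtain ⟨q, ⟨η, hη, hq⟩, hd⟩ := Metric.mem_closure_iff.1 key (δ / 2) (by positivity)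
  rw [dist_eq_norm] at hd
  refine ⟨η, hη, (Id.ci _).pp_mem1 hp (q := (1 / 2 : ℝ) • (q + star q))
    ((Id.ci _).smul _ ((Id.ci _).add hq ((Id.ci _).star hq))) (half_lt_self hδ) ?_⟩
  refine le_of_norm (.of_nonneg hp) ((IsSelfAdjoint.all _).smul (IsSelfAdjoint.add_star_self q)) ?_
  have e : p - (1 / 2 : ℝ) • (q + star q) = (1 / 2 : ℝ) • ((p - q) + star (p - q)) := by
    rw [star_sub, sa hp]; module
  rw [e, norm_smul]
  have := norm_add_le (p - q) (star (p - q))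
  rw [norm_star] at this
  rw [Real.norm_eq_abs, abs_of_pos (by norm_num)]
  linarith

theorem Cp.trans_id {l S S' : A} (h : Cp l S) (hS : 0 ≤ S) (hS' : 0 ≤ S') (h' : S ∈ Id S') :
    Cp l S' := by
  obtain ⟨η, hη, h⟩ := h
  exact Cp.of_id h (cp_pp hS hS' h' hη)

theorem cp_self {S : A} (hS : 0 ≤ S) {η : ℝ} (hη : 0 < η) : Cp (pp S η) S := ⟨η, hη, Id.self _⟩

theorem cp_pp_pp {S : A} (hS : 0 ≤ S) {η η' : ℝ} (h : η < η') : Cp (pp S η') (pp S η) := by
  refine ⟨(η' - η) / 2, by linarith, (Id.ci _).pp_mem1 hS (Id.self _)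
    (δ := (η' - η) / 2 + η) (by linarith) ((le_pp hS η).trans ?_)⟩
  rw [add_smul, ← add_assoc]
  exact add_le_add (le_pp (pp_nonneg _ _) _) le_rfl

theorem Cp.shrink {k E : A} (h : Cp k E) (hE : 0 ≤ E) : ∃ e E' : A, 0 ≤ e ∧ e ≤ 1 ∧ Dm e E ∧
    0 ≤ E' ∧ Le E' E ∧ e * E' = E' ∧ Cp k E' ∧ Cp E' E := by
  obtain ⟨η, hη, h⟩ := h
  have h2 := half_pos hη
  exact ⟨rp E (η / 2), pp E (η / 2), rp_nonneg hE h2, rp_le_one hE h2, dm_rp hE h2, pp_nonneg _ _,
    le_pp' hE h2, rp_pp hE h2, Cp.of_id h (cp_pp_pp hE (half_lt_self hη)), cp_self hE h2⟩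

theorem Cp.interp {k E : A} (h : Cp k E) (hE : 0 ≤ E) : ∃ m : A, 0 ≤ m ∧ Cp k m ∧ Cp m E := by
  obtain ⟨-, m, -, -, -, h1, -, -, h2, h3⟩ := h.shrink hE
  exact ⟨m, h1, h2, h3⟩

theorem Cp.two {l S₁ S₂ : A} (h : Cp l (S₁ + S₂)) (h1 : 0 ≤ S₁) (h2 : 0 ≤ S₂) :
    ∃ l₁ l₂ : A, 0 ≤ l₁ ∧ 0 ≤ l₂ ∧ Cp l₁ S₁ ∧ Cp l₂ S₂ ∧ Cp l (l₁ + l₂) := by
  obtain ⟨η, hη, h⟩ := h
  have h4 : 0 < η / 4 := by positivity
  refine ⟨pp S₁ (η / 4), pp S₂ (η / 4), pp_nonneg _ _, pp_nonneg _ _, cp_self h1 h4, cp_self h2 h4,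
    η / 4, h4, Id.trans h ((Id.ci _).pp_mem1 (add_nonneg h1 h2) (Id.self _)
      (δ := η / 4 + (η / 4 + η / 4)) (by linarith) ?_)⟩
  refine (add_le_add (le_pp h1 (η / 4)) (le_pp h2 (η / 4))).trans ?_
  rw [add_add_add_comm, ← add_smul, add_smul (η / 4) (η / 4 + η / 4), ← add_assoc]
  exact add_le_add (le_pp (add_nonneg (pp_nonneg _ _) (pp_nonneg _ _)) _) le_rfl

/-- proper infiniteness -/
def PI (h : A) : Prop := ∃ r s : ℕ → A, Tendsto (fun n => star (r n) * h * r n) atTop (𝓝 h) ∧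
  Tendsto (fun n => star (s n) * h * s n) atTop (𝓝 h) ∧
  Tendsto (fun n => star (r n) * h * s n) atTop (𝓝 0)

theorem PI.embed {h m : A} (hp : PI h) (hh : 0 ≤ h) (hm : 0 ≤ m) (hI : m ∈ Id h) :
    m ∈ closure {z | ∃ x, Dm x h ∧ star x * x = z} := by
  obtain ⟨y, -, y1, y2⟩ := ex_sqrt hm
  have hy : y ∈ Id h := Id.trans ((Dm.sqrt y1 y2).id hm) hI
  have key : y ∈ closure {z | ∃ d e, d * h * e = z} := by
    refine hy _ ⟨isClosed_closure, fun hx hy => ?_, fun a hx => ?_, fun a hx => ?_⟩ ?_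
    · rw [← closure_closure]
      refine map_mem_closure₂ continuous_add hx hy ?_
      rintro _ ⟨d₁, e₁, rfl⟩ _ ⟨d₂, e₂, rfl⟩
      obtain ⟨r, s, h1, h2, h3⟩ := hp
      have h4 := h3.star
      have t := (((h1.const_mul d₁).mul_const e₁).add ((h3.const_mul d₁).mul_const e₂)).add
        (((h4.const_mul d₂).mul_const e₁).add ((h2.const_mul d₂).mul_const e₂))
      simp only [star_zero, mul_zero, zero_mul, add_zero, zero_add] at t
      refine mem_closure_of_tendsto t (Eventually.of_forall fun n =>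
        ⟨d₁ * star (r n) + d₂ * star (s n), r n * e₁ + s n * e₂, ?_⟩)
      simp only [star_mul, star_star, sa hh]
      noncomm_ring
    · refine map_mem_closure (continuous_const_mul a) hx ?_
      rintro _ ⟨d, e, rfl⟩
      exact ⟨a * d, e, by simp only [mul_assoc]⟩
    · refine map_mem_closure (f := fun x : A => x * a) (continuous_mul_const a) hx ?_
      rintro _ ⟨d, e, rfl⟩
      exact ⟨d, e * a, by simp only [mul_assoc]⟩
    · exact subset_closure ⟨1, 1, by simp⟩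
  have e : m = star y * y := by rw [y1, y2]
  rw [e]
  refine map_mem_closure (f := fun y : A => star y * y) (by fun_prop) key ?_
  rintro _ ⟨d, e, rfl⟩
  obtain ⟨g, -, g1, g2⟩ := ex_sqrt hh
  have k0 : 0 ≤ g * (star d * d) * star g := star_right_conjugate_nonneg (star_mul_self_nonneg d) g
  obtain ⟨k, -, k1, k2⟩ := ex_sqrt k0
  refine ⟨k * (g * e), ((Dm.sqrt k1 k2).trans ((Dm.sqrt g1 g2).conj (star_mul_self_nonneg d))).mul _,
    ?_⟩
  have : star (k * (g * e)) * (k * (g * e)) = star e * g * (k * k) * (g * e) := by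
    simp only [star_mul, k1, g1, mul_assoc]
  rw [this, k2, ← g2]
  simp only [star_mul, g1, mul_assoc]

theorem PI.embed' {h m : A} (hp : PI h) (hh : 0 ≤ h) (hm : 0 ≤ m) (hI : m ∈ Id h) {ε : ℝ}
    (hε : 0 < ε) : ∃ x, Dm x h ∧ ‖star x * x - m‖ ≤ ε := by
  obtain ⟨_, ⟨x, hx, rfl⟩, hd⟩ := Metric.mem_closure_iff.1 (hp.embed hh hm hI) ε hε
  rw [dist_comm, dist_eq_norm] at hd
  exact ⟨x, hx, hd.le⟩

theorem PI.emb {D m l : A} (hp : PI D) (hD : 0 ≤ D) (hm : 0 ≤ m) (hI : m ∈ Id D) (hl : Cp l m) :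
    ∃ G : A, 0 ≤ G ∧ Le G D ∧ G ∈ Id m ∧ l ∈ Id G := by
  obtain ⟨η, hη, hl⟩ := hl
  have key : m * m * m ∈ closure {z | ∃ x, Dm x D ∧ star x * (x * m * star x) * x = z} := by
    refine map_mem_closure (f := fun u : A => u * m * u) (by fun_prop) (hp.embed hD hm hI) ?_
    rintro _ ⟨x, hx, rfl⟩
    exact ⟨x, hx, by simp only [mul_assoc]⟩
  obtain ⟨_, ⟨x, hx, rfl⟩, hd⟩ := Metric.mem_closure_iff.1 key (η ^ 3 / 2) (by positivity)
  have G0 : 0 ≤ x * m * star x := star_right_conjugate_nonneg hm x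
  refine ⟨x * m * star x, G0, hx.conj hm, (Id.ci _).mr _ ((Id.ci _).ml _ (Id.self m)),
    Id.trans hl ((Id.ci _).pp_mem hm ((Id.ci _).mr x ((Id.ci _).ml (star x) (Id.self _))) 3 0
      (η ^ 3 / 2) (η ^ 3 / 2) (by positivity) (fun t ht => ?_) ?_)⟩
  · have := pow_le_pow_left₀ hη.le ht.le 3
    linarith
  · rw [zero_smul, add_zero, pow_three']
    rw [dist_eq_norm] at hd
    exact le_of_norm (.of_nonneg (conjugate_nonneg_of_nonneg hm hm))
      (.of_nonneg (star_left_conjugate_nonneg G0 x)) hd.le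

theorem PI.split0 {D m : A} (hp : PI D) (hD : 0 ≤ D) (hm : Cp m D) : ∃ D₁ D₂ : A, 0 ≤ D₁ ∧ 0 ≤ D₂ ∧
    Le D₁ D ∧ Le D₂ D ∧ D₁ * D₂ = 0 ∧ m ∈ Id D₁ ∧ m ∈ Id D₂ := by
  obtain ⟨η, hη, hm⟩ := hm
  obtain ⟨r, s, h1, h2, h3⟩ := hp
  have t1 := (h1.mul h1).sub (h3.mul h3.star)
  have t2 := (h2.mul h2).sub (h3.star.mul h3)
  simp only [zero_mul, mul_zero, sub_zero] at t1 t2
  have hδ : 0 < η ^ 2 / 2 := by positivity
  obtain ⟨n, n1, n2⟩ := (((Metric.tendsto_nhds.1 t1) _ hδ).and ((Metric.tendsto_nhds.1 t2) _ hδ)).exists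
  rw [dist_comm, dist_eq_norm] at n1 n2
  generalize r n = r at n1 n2
  generalize s n = s at n1 n2
  obtain ⟨g, -, g1, g2⟩ := ex_sqrt hD
  have hd : IsSelfAdjoint (g * r * star (g * r) - g * s * star (g * s)) :=
    (IsSelfAdjoint.mul_star_self _).sub (IsSelfAdjoint.mul_star_self _)
  obtain ⟨p, q, p0, q0, e, pq, qp⟩ := ex_parts hd
  have dD : Dm (p - q) D := by
    rw [← e]
    exact (((Dm.sqrt g1 g2).mul _).mul _).sub (((Dm.sqrt g1 g2).mul _).mul _)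
  have e2 : (p - q) * star (p - q) = p * p + q * q := by
    rw [star_sub, sa p0, sa q0, sub_mul, mul_sub, mul_sub, pq, qp]; abel
  have pp0 : 0 ≤ p * p := by simpa only [sa p0] using star_mul_self_nonneg p
  have qq0 : 0 ≤ q * q := by simpa only [sa q0] using star_mul_self_nonneg q
  have fin : ∀ (u x : A), 0 ≤ u → ∀ X : A, IsSelfAdjoint X → X ≤ u →
      ‖D * D - star x * X * x‖ < η ^ 2 / 2 → m ∈ Id (u * u) := by
    intro u x u0 X hX hle hn
    have hu : u ∈ Id (u * u) := (Id.ci _).root (by rw [sa u0]; exact Id.self _)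
    refine Id.trans hm ((Id.ci _).pp_mem hD ((Id.ci _).mr x ((Id.ci _).ml (star x) hu)) 2 0
      (η ^ 2 / 2) (η ^ 2 / 2) hδ (fun t ht => ?_) ?_)
    · have := pow_le_pow_left₀ hη.le ht.le 2
      linarith
    · rw [zero_smul, add_zero, sq]
      refine (le_of_norm ?_ (hX.conjugate' x) hn.le).trans
        (add_le_add (star_left_conjugate_le_conjugate hle x) le_rfl)
      simpa only [sa hD] using IsSelfAdjoint.star_mul_self D
  refine ⟨p * p, q * q, pp0, qq0, Le.trans ?_ dD, Le.trans ?_ dD, ?_,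
    fin p (g * r) p0 _ hd ?_ ?_, fin q (g * s) q0 _ hd.neg ?_ ?_⟩
  · rw [e2]; exact .left qq0
  · rw [e2]; exact .right pp0
  · rw [mul_assoc, ← mul_assoc p q, pq, zero_mul, mul_zero]
  · rw [e]; exact sub_le_self _ q0
  · refine lt_of_eq_of_lt (congrArg (fun X => ‖D * D - X‖) ?_) n1
    simp only [star_mul, star_star, ← g2, g1]
    noncomm_ring
  · rw [e, neg_sub]; exact sub_le_self _ p0
  · refine lt_of_eq_of_lt (congrArg (fun X => ‖D * D - X‖) ?_) n2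
    simp only [star_mul, star_star, ← g2, g1]
    noncomm_ring

/-- every positive element of the ideal `S` is properly infinite -/
structure Ctx (S : Set A) : Prop where
  ci : CI S
  pi : ∀ h ∈ S, 0 ≤ h → PI h

theorem Ctx.split {S : Set A} (hS : Ctx S) {D m : A} (hD : 0 ≤ D) (hDS : D ∈ S) (hm : Cp m D) :
    ∃ D₁ D₂ : A, 0 ≤ D₁ ∧ 0 ≤ D₂ ∧ Le D₁ D ∧ Le D₂ D ∧ D₂ * D₁ = 0 ∧ Cp m D₁ ∧ Cp D₁ D₂ := by
  obtain ⟨m₁, p1, hm, c1⟩ := hm.interp hD
  obtain ⟨m₂, p2, hm, c2⟩ := hm.interp p1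
  obtain ⟨m₃, p3, hm, c3⟩ := hm.interp p2
  obtain ⟨D₁, D₂, q1, q2, l1, l2, o, i1, i2⟩ := (hS.pi D hDS hD).split0 hD c1
  obtain ⟨G, g0, g1, g2, g3⟩ := (hS.pi D₂ (hS.ci.le q2 hD hDS l2) q2).emb q2 p2
    (Id.trans (c2.id p1) i2) c3
  exact ⟨G, D₁, g0, q1, g1.trans l2, l1, (g1.dm g0).ann o, hm.trans_id p3 g0 g3,
    Cp.of_id g2 (c2.trans_id p1 q1 i1)⟩

/-- the Rayleigh window -/
theorem win {B R : A} (hB : 0 ≤ B) (hR : IsSelfAdjoint R) {a a' : ℝ} (h : a < a') :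
    ∃ F : A, 0 ≤ F ∧ Le F B ∧ (∀ y, Dm y F → star y * R * y ≤ a' • (star y * y)) ∧
      ∀ S : Set A, CI S → F ∈ S → ∀ y q, Dm y B → q ∈ S →
        star y * R * y ≤ a • (star y * y) + q → y ∈ S := by
  obtain ⟨β, -, b1, b2⟩ := ex_sqrt hB
  have hQ : IsSelfAdjoint (a' • (1 : A) - R) := ((IsSelfAdjoint.all _).smul (.one A)).sub hR
  have eQ : ∀ y : A, star y * (a' • (1 : A) - R) * y = a' • (star y * y) - star y * R * y := by
    intro y
    rw [mul_sub, sub_mul, mul_smul_comm, mul_one, smul_mul_assoc]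
  generalize a' • (1 : A) - R = Q at hQ eQ
  obtain ⟨p, q, p0, q0, e, pq, qp⟩ := ex_parts (hQ.conjugate' β)
  have e3 : star (β * p) * Q * (β * p) = p * p * p := by
    calc _ = p * (star β * Q * β) * p := by simp only [star_mul, sa p0, mul_assoc]
      _ = _ := by rw [e, mul_sub, pq, sub_zero]
  refine ⟨β * p * star (β * p), mul_star_self_nonneg _, (Dm.sqrt b1 b2).mul p, fun y hy => ?_,
    fun S hS hF y q' hy hq' hle => ?_⟩
  · rw [← sub_nonneg, ← eQ]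
    refine CStarAlgebra.isClosed_nonneg.closure_subset
      (map_mem_closure (f := fun y : A => star y * Q * y) (by fun_prop) hy.apx' ?_)
    rintro _ ⟨d, rfl⟩
    have := star_left_conjugate_nonneg (conjugate_nonneg_of_nonneg p0 p0) d
    rw [← e3] at this
    simpa only [star_mul, mul_assoc, Set.mem_setOf_eq] using this
  · have hp : p ∈ S := by
      have h3 : p * p * p ∈ S := e3 ▸ hS.ml _ (hS.root hF)
      refine hS.root (hS.root ?_)
      have := hS.ml p h3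
      simpa only [star_mul, star_star, sa p0, mul_assoc] using this
    have hκ : 0 < a' - a := sub_pos.2 h
    have hW : (a' - a) • (star y * y) ∈ S := by
      refine hS.lim (smul_nonneg hκ.le (star_mul_self_nonneg y)) hq' (hQ.conjugate' y) ?_ ?_
      · rw [eQ, sub_smul, sub_add_eq_add_sub, le_sub_iff_add_le, sub_add_eq_add_sub,
          sub_le_iff_le_add, add_assoc, add_comm q']
        exact add_le_add le_rfl hle
      · have hy' : Dm y (β * star β) := by rwa [b1, b2]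
        refine map_mem_closure (f := fun y : A => star y * Q * y) (by fun_prop) hy'.apx' ?_
        rintro _ ⟨ζ, rfl⟩
        refine ⟨hQ.conjugate' _, star ζ * p * ζ, hS.mr _ (hS.ml _ hp), ?_⟩
        have := star_left_conjugate_le_conjugate (e.le.trans (sub_le_self p q0)) ζ
        simpa only [star_mul, mul_assoc] using this
    have := hS.smul (a' - a)⁻¹ hW
    rw [smul_smul, inv_mul_cancel₀ hκ.ne', one_smul] at this
    exact hS.root' this

/-- `Z` is small on the range of `F` -/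
def NI (Z F : A) (c : ℝ) : Prop := ∀ y, Dm y F → ‖Z * y‖ ≤ c * ‖y‖

theorem NI.le {Z F F' : A} {c : ℝ} (h : NI Z F c) (h' : Le F' F) : NI Z F' c :=
  fun y hy => h y (hy.trans h')
theorem NI.mono {Z F : A} {c c' : ℝ} (h : NI Z F c) (h' : c ≤ c') : NI Z F c' :=
  fun y hy => (h y hy).trans (mul_le_mul_of_nonneg_right h' (norm_nonneg _))
theorem NI.add {Z Z' F : A} {c c' : ℝ} (h : NI Z F c) (h' : NI Z' F c') : NI (Z + Z') F (c + c') :=
  fun y hy => by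
    rw [add_mul, add_mul]
    exact (norm_add_le _ _).trans (add_le_add (h y hy) (h' y hy))
theorem NI.triv (Z F : A) : NI Z F ‖Z‖ := fun _ _ => norm_mul_le _ _

theorem winZ {B : A} (hB : 0 ≤ B) (Z : A) {c c' : ℝ} (hc : 0 ≤ c) (h : c < c') :
    ∃ F : A, 0 ≤ F ∧ Le F B ∧ NI Z F c' ∧ ∀ S : Set A, CI S → F ∈ S → ∀ y q, Dm y B → q ∈ S →
      star (Z * y) * (Z * y) ≤ c ^ 2 • (star y * y) + q → y ∈ S := by
  obtain ⟨F, h0, h1, h2, h3⟩ := win hB (IsSelfAdjoint.star_mul_self Z)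
    (pow_lt_pow_left₀ h hc two_ne_zero)
  refine ⟨F, h0, h1, fun y hy => norm_of_le (hc.trans h.le) ?_, fun S hS hF y q hy hq hle =>
    h3 S hS hF y q hy hq ?_⟩
  · simpa only [star_mul, mul_assoc] using h2 y hy
  · simpa only [star_mul, mul_assoc] using hle

theorem CI.zero {S : Set A} (hS : CI S) {x : A} (h : x ∈ S) : (0 : A) ∈ S := by
  simpa using hS.ml 0 h

theorem cut {F : A} (hF : 0 ≤ F) (Z : A) {θ : ℝ} (hθ : 0 < θ) : ∃ F' g : A, 0 ≤ F' ∧ 0 ≤ g ∧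
    Le F' F ∧ Le g F ∧ NI Z F' θ ∧ g ∈ Id Z ∧ F ∈ Id (F' + g) := by
  obtain ⟨F', h0, h1, h2, h3⟩ := winZ hF Z le_rfl hθ
  obtain ⟨y, -, y1, y2⟩ := ex_sqrt hF
  have g0 := star_mul_self_nonneg (Z * y)
  refine ⟨F', _, h0, g0, h1, ?_, h2, (Id.ci _).ml _ ((Id.ci _).mr _ (Id.self Z)), ?_⟩
  · have := (Dm.sqrt y1 y2).conj (star_mul_self_nonneg Z)
    simpa only [star_mul, y1, mul_assoc] using this
  · have := h3 _ (Id.ci _) ((Le.left g0).id h0 (add_nonneg h0 g0)) y _ (Dm.sqrt y1 y2)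
      ((Le.right h0).id g0 (add_nonneg h0 g0)) (by simp)
    rw [← y2]
    exact (Id.ci _).ml _ this

theorem merge {F₁ F₂ Z : A} (h1 : 0 ≤ F₁) (h2 : 0 ≤ F₂) {c c' : ℝ} (hc : 0 ≤ c) (h : c < c')
    (n1 : NI Z F₁ c) (n2 : NI Z F₂ c) :
    ∃ F : A, 0 ≤ F ∧ Le F (F₁ + F₂) ∧ NI Z F c' ∧ F₁ ∈ Id F ∧ F₂ ∈ Id F := by
  obtain ⟨F, f0, f1, f2, f3⟩ := winZ (add_nonneg h1 h2) Z hc h
  have key : ∀ G : A, 0 ≤ G → Le G (F₁ + F₂) → NI Z G c → G ∈ Id F := by
    intro G G0 hG n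
    refine (Id.ci F).of_pp G0 fun η hη => ?_
    refine f3 _ (Id.ci F) (Id.self F) _ 0 (((le_pp' G0 hη).trans hG).dm (pp_nonneg _ _))
      ((Id.ci F).zero (Id.self F)) ?_
    have hn : ‖Z * rp G η‖ ≤ c := (n _ (dm_rp G0 hη)).trans
      (mul_le_of_le_one_right hc (norm_le_one (rp_nonneg G0 hη) (rp_le_one G0 hη)))
    have := conj_le' hn (pp G η)
    rwa [mul_assoc Z, rp_pp G0 hη, ← add_zero (c ^ 2 • _)] at this
  exact ⟨F, f0, f1, f2, key _ h1 (.left h2) n1, key _ h2 (.right h1) n2⟩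

end Crest.Agent.R110w
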