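import Crest.Agent.R110w.B

/-! Row 110 (window version): the approximate projection and the containment case. -/

set_option autoImplicit false
set_option linter.unusedSectionVars false

namespace Crest.Agent.R110w

theorem ap_alg {R : Type*} [Ring R] (φ h x x' ρ n t : R) (hn : n = 1 - φ) (ht : t = 1 - n * n)
    (a1 : x * h = 0) (a2 : h * x' = 0) (b1 : x * n * x = 0) (b2 : x' * n * x' = 0)
    (c1 : (t + h) * x = x) (c2 : x' * (t + h) = x') (d1 : φ * h = 0) (d2 : h * φ = 0)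
    (e : x' * x = t + ρ) :
    (1 - (t + h - x * x' + x * n + n * x')) * (t + h - x * x' + x * n + n * x') =
      (1 - h) * h - (x - n) * ρ * (x' - n) := by
  subst hn ht
  linear_combination (norm := noncomm_ring) -((2 - φ) * d1 + d2 * (2 - φ) - c1 * x' + c1 * (1 - φ)
    + (a2 - d2 * x') - x * c2 + x * e * x' - x * e * (1 - φ) - x * b2 + (a1 - x * d1) - b1 * x'
    + b1 * (1 - φ) + (1 - φ) * c2 - (1 - φ) * e * x' + (1 - φ) * e * (1 - φ) + (1 - φ) * b2)

variable {A : Type*} [CStarAlgebra A] [PartialOrder A] [StarOrderedRing A]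

theorem star_eq0 {a b : A} (ha : star a = a) (hb : star b = b) (h : a * b = 0) : b * a = 0 := by
  have := congrArg star h
  rwa [star_mul, ha, hb, star_zero] at this

theorem Ctx.aproj {S : Set A} (hS : Ctx S) {E k z : A} (hE : 0 ≤ E) (hES : E ∈ S) (hk : Cp k E)
    (hz : z ∈ Id k) {τ : ℝ} (hτ : 0 < τ) : ∃ p P : A, star p = p ∧ Dm p E ∧ 0 ≤ P ∧ Le P E ∧
      p * P = P ∧ Cp k P ∧ ‖(1 - p) * p * z‖ ≤ τ := by
  obtain ⟨G₁, G₂, g1, g2, l1, l2, o12, hk, c12⟩ := hS.split hE hES hk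
  obtain ⟨u, G', u0, u1, ud, g', l', uG, hk, -⟩ := hk.shrink g1
  obtain ⟨φ, G'', f0, f1, fd, g'', l'', fG, hk, -⟩ := hk.shrink g'
  have lE : Le G'' E := (l''.trans l').trans l1
  obtain ⟨P, R₀, P0, R0, lP, lR, oPR, hk, cPR⟩ := hS.split g'' (hS.ci.le g'' hE hES lE) hk
  have kR : k ∈ Id R₀ := Id.trans (hk.id P0) (cPR.id R0)
  obtain ⟨W, g, W0, g0, lW, -, nW, gI, GI⟩ := cut g2 (star z) (half_pos hτ)
  have gR : g ∈ Id R₀ := Id.trans gI ((Id.ci _).star (Id.trans hz kR))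
  obtain ⟨l₁, l₂, p1, p2, c1, c2, c3⟩ := (c12.trans_id g2 (add_nonneg W0 g0) GI).two W0 g0
  obtain ⟨h, R₂, h0, h1, hd, R2, lR2, hR, c1, -⟩ := c1.shrink W0
  have RR := add_nonneg R0 R2
  have GR : G₁ ∈ Id (R₀ + R₂) := Id.trans (c3.id (add_nonneg p1 p2)) ((Id.ci _).add
    (Id.trans (c1.id R2) ((Le.right R0).id R2 RR))
    (Id.trans (Id.trans (c2.id g0) gR) ((Le.left R2).id R0 RR)))
  have l2E : Le R₂ G₂ := lR2.trans lW
  have lRR : Le (R₀ + R₂) E := (lR.trans lE).add (l2E.trans l2)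
  obtain ⟨n, hn⟩ : ∃ n, n = 1 - φ := ⟨_, rfl⟩
  obtain ⟨t, ht⟩ : ∃ t, t = 1 - n * n := ⟨_, rfl⟩
  have n0 : 0 ≤ n := hn ▸ sub_nonneg.2 f1
  have nn : ‖n‖ ≤ 1 := norm_le_one n0 (hn ▸ sub_le_self _ f0)
  have t0 : 0 ≤ t := by
    have := conj_le' nn 1
    rw [mul_one, sa n0, star_one, mul_one, one_pow, one_smul] at this
    exact ht ▸ sub_nonneg.2 this
  have t1 : ‖t‖ ≤ 1 := norm_le_one t0 (ht ▸ sub_le_self _
    (by simpa only [sa n0] using star_mul_self_nonneg n))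
  have te : t = φ * (2 - φ) := by rw [ht, hn]; noncomm_ring
  have fd1 : Dm φ G₁ := fd.trans l'
  have tI : t ∈ Id (R₀ + R₂) := te ▸ (Id.ci _).mr _ (Id.trans (fd1.id g1) GR)
  have hτ2 : 0 < min 1 (τ / 2 / (9 * ‖z‖ + 1)) := lt_min one_pos (by positivity)
  obtain ⟨x₀, xd, hx⟩ := (hS.pi _ (hS.ci.le RR hE hES lRR) RR).embed' RR t0 tI hτ2
  have su := sa u0
  have sf := sa f0
  have sh := sa h0
  have hd2 : Dm h G₂ := hd.trans lW
  have uf : u * φ = φ := fd.unit uG
  have fu : φ * u = φ := by simpa only [star_mul, su, sf] using congrArg star uf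
  have uh : u * h = 0 := by simpa only [su] using ud.orth hd2 g2 o12
  have fh : φ * h = 0 := by simpa only [sf] using fd1.orth hd2 g2 o12
  have uR2 : u * R₂ = 0 := by simpa only [su] using ud.orth (l2E.dm R2) g2 o12
  have fR2 : φ * R₂ = 0 := by simpa only [sf] using fd1.orth (l2E.dm R2) g2 o12
  have fR0 : φ * R₀ = R₀ := (lR.dm R0).unit fG
  have uR0 : u * R₀ = R₀ := ((lR.trans l'').dm R0).unit uG
  have o21 : G₁ * G₂ = 0 := star_eq0 (sa g2) (sa g1) o12
  have hR0 : h * R₀ = 0 := by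
    simpa only [sh] using hd2.orth (((lR.trans l'').trans l').dm R0) g1 o21
  have hP : h * P = 0 := by
    simpa only [sh] using hd2.orth (((lP.trans l'').trans l').dm P0) g1 o21
  have fP : φ * P = P := (lP.dm P0).unit fG
  have nP : n * P = 0 := by rw [hn, sub_mul, one_mul, fP, sub_self]
  have PR2 : P * R₂ = 0 := by
    simpa only [sa P0] using (((lP.trans l'').trans l').dm P0).orth (l2E.dm R2) g2 o12
  have Px : P * x₀ = 0 := xd.ann (by
    rw [mul_add, PR2, star_eq0 (sa R0) (sa P0) oPR, add_zero])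
  have xP : star x₀ * P = 0 := by simpa only [star_mul, sa P0, star_zero] using congrArg star Px
  have un : u * n = u - φ := by rw [hn, mul_sub, mul_one, uf]
  have ux : u * n * x₀ = 0 := xd.ann (by
    rw [un, mul_add, sub_mul, sub_mul, uR0, fR0, uR2, fR2, sub_self, sub_self, add_zero])
  have tx : (t + h) * x₀ = x₀ := xd.unit (by
    rw [te, mul_add, add_mul, add_mul, mul_assoc, mul_assoc, sub_mul, sub_mul, fR0, fR2, hR0, hR,
      two_mul, add_sub_cancel_right, fR0, sub_zero, two_mul, mul_add, fR2]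
    simp)
  have tu : u * t * u = t := by
    rw [te, ← mul_assoc, uf, mul_assoc, sub_mul, fu, mul_sub, two_mul, mul_add, fu, mul_sub,
      mul_two]
  obtain ⟨x, hxe⟩ : ∃ x, x = x₀ * u := ⟨_, rfl⟩
  have sx : star x = u * star x₀ := by rw [hxe, star_mul, su]
  have a1 : x * h = 0 := by rw [hxe, mul_assoc, uh, mul_zero]
  have b1 : x * n * x = 0 := by
    rw [hxe, mul_assoc x₀, mul_assoc x₀, ← mul_assoc (u * n), ux, zero_mul, mul_zero]
  have c1' : (t + h) * x = x := by rw [hxe, ← mul_assoc, tx]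
  have key := ap_alg φ h x (star x) (u * (star x₀ * x₀ - t) * u) n t hn ht a1
    (by simpa only [star_mul, sh, star_zero] using congrArg star a1) b1
    (by simpa only [star_mul, sa n0, star_zero, mul_assoc] using congrArg star b1) c1'
    (by simpa only [star_mul, star_add, sa t0, sh] using congrArg star c1') fh
    (star_eq0 sf sh fh) (by
      rw [mul_sub, sub_mul, tu, sx, hxe, add_sub_cancel]
      simp only [mul_assoc])
  have xdE : Dm x E := hxe ▸ (xd.trans lRR).mul u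
  refine ⟨t + h - x * star x + x * n + n * star x, P, ?_, ?_, P0, lP.trans lE, ?_, hk, ?_⟩
  · simp only [star_add, star_sub, star_mul, star_star, sa t0, sh, sa n0]
    abel
  · refine ((((te ▸ (fd1.trans l1).mul _).add (hd2.trans l2)).sub (xdE.mul _)).add
      (xdE.mul _)).add ?_
    rw [sx, hn, sub_mul, one_mul]
    exact ((ud.trans l1).mul _).sub ((fd1.trans l1).mul _)
  · have xP' : star x * P = 0 := by rw [sx, mul_assoc, xP, mul_zero]
    rw [add_mul, add_mul, sub_mul, add_mul, mul_assoc, mul_assoc, mul_assoc, xP', nP, hP, ht,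
      sub_mul, mul_assoc, nP]
    simp
  · have e1 : ‖h * z‖ ≤ τ / 2 := by
      have := nW h hd
      rw [← norm_star, star_mul, star_star, sh] at this
      exact this.trans (mul_le_of_le_one_right (by positivity) (norm_le_one h0 h1))
    have e2 : ‖(1 - h) * (h * z)‖ ≤ τ / 2 := (norm_mul_le _ _).trans
      ((mul_le_of_le_one_left (norm_nonneg _)
        (norm_le_one (sub_nonneg.2 h1) (sub_le_self _ h0))).trans e1)
    have nu := norm_le_one u0 u1
    have e3 : ‖x‖ ≤ 2 := by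
      have h1 : ‖x₀‖ * ‖x₀‖ ≤ 2 := by
        rw [← CStarRing.norm_star_mul_self]
        have := norm_add_le (star x₀ * x₀ - t) t
        rw [sub_add_cancel] at this
        linarith [min_le_left 1 (τ / 2 / (9 * ‖z‖ + 1))]
      have h2 : ‖x₀‖ ≤ 2 := by nlinarith
      rw [hxe]
      exact (norm_mul_le _ _).trans ((mul_le_of_le_one_right (norm_nonneg _) nu).trans h2)
    have e4 : ‖x - n‖ ≤ 3 := (norm_sub_le _ _).trans (by linarith)
    have e5 : ‖star x - n‖ ≤ 3 := (norm_sub_le _ _).trans (by rw [norm_star]; linarith)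
    have e6 : ‖u * (star x₀ * x₀ - t) * u‖ ≤ τ / 2 / (9 * ‖z‖ + 1) :=
      (norm_mul_le _ _).trans ((mul_le_of_le_one_right (norm_nonneg _) nu).trans
        ((norm_mul_le _ _).trans ((mul_le_of_le_one_left (norm_nonneg _) nu).trans
          (hx.trans (min_le_right _ _)))))
    have e7 : ‖(x - n) * (u * (star x₀ * x₀ - t) * u) * (star x - n) * z‖ ≤ τ / 2 := by
      calc _ ≤ 3 * (τ / 2 / (9 * ‖z‖ + 1)) * 3 * ‖z‖ := by
            refine (norm_mul_le _ _).trans (mul_le_mul_of_nonneg_right ?_ (norm_nonneg _))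
            refine (norm_mul_le _ _).trans (mul_le_mul ?_ e5 (norm_nonneg _) (by positivity))
            exact (norm_mul_le _ _).trans (mul_le_mul e4 e6 (norm_nonneg _) (by positivity))
        _ = τ / 2 * (9 * ‖z‖ / (9 * ‖z‖ + 1)) := by ring
        _ ≤ _ := mul_le_of_le_one_right (by positivity)
            ((div_le_one (by positivity)).2 (by linarith))
    rw [key, sub_mul, mul_assoc (1 - h)]
    exact (norm_sub_le _ _).trans (by linarith)

theorem xx (T : A) {μ : ℝ} (hμ : 0 < μ) :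
    pp (star T * T) (4 * μ) ∈ Id (pp (T * star T) (3 * μ)) := by
  refine (Id.ci _).pp_mem (star_mul_self_nonneg T)
    ((Id.ci _).mr T ((Id.ci _).ml (star T) (Id.self _))) 2 (3 * μ) 0 (4 * μ * μ) (by positivity)
    (fun t ht => by nlinarith) ?_
  have := star_left_conjugate_le_conjugate (le_pp (mul_star_self_nonneg T) (3 * μ)) T
  rw [mul_add, add_mul, mul_smul_comm, mul_one, smul_mul_assoc] at this
  rw [zero_smul, add_zero, sq]
  simpa only [mul_assoc] using this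

theorem Ctx.cont {S : Set A} (hS : Ctx S) {E F k l : A} (hE : 0 ≤ E) (hES : E ∈ S) (hF : 0 ≤ F)
    (hk : Cp k E) (hFk : F ∈ Id k) (hl : Cp l F) (w : A) {θ : ℝ} (hθ : 0 < θ) :
    ∃ E' F' : A, 0 ≤ E' ∧ 0 ≤ F' ∧ Le E' E ∧ Le F' F ∧ k ∈ Id E' ∧ l ∈ Id F' ∧
      ∀ x, Dm x E' → NI (star x * w) F' (θ * ‖x‖) := by
  obtain ⟨M, hM⟩ : ∃ M, M = ‖w‖ + 1 := ⟨_, rfl⟩
  have M1 : 1 ≤ M := by linarith [norm_nonneg w]
  have Mw : ‖w‖ ≤ M := by linarith
  obtain ⟨θ₁, hθ₁⟩ : ∃ θ₁, θ₁ = θ / (4 * M) := ⟨_, rfl⟩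
  have θ1 : 0 < θ₁ := by rw [hθ₁]; positivity
  have θM : θ₁ * M = θ / 4 := by rw [hθ₁]; field_simp
  obtain ⟨τ₁, hτ₁⟩ : ∃ τ₁, τ₁ = θ₁ / (2 * M) := ⟨_, rfl⟩
  have τ1 : 0 < τ₁ := by rw [hτ₁]; positivity
  have τM : τ₁ * M = θ₁ / 2 := by rw [hτ₁]; field_simp
  obtain ⟨ν, hν⟩ : ∃ ν, ν = θ / 8 := ⟨_, rfl⟩
  have ν0 : 0 < ν := by rw [hν]; positivity
  have μ0 : 0 < ν ^ 2 := by positivity
  obtain ⟨β, β₀, b0, b1, bd, b00, bl, bb, hl, -⟩ := hl.shrink hF
  obtain ⟨p, P, sp, pd, P0, lP, pP, hk, hp⟩ := hS.aproj hE hES hk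
    ((Id.ci k).ml w (Id.trans (bd.id hF) hFk)) (mul_pos τ1 ν0)
  obtain ⟨T, hT⟩ : ∃ T, T = p * (w * β) := ⟨_, rfl⟩
  rw [mul_assoc, ← hT] at hp
  have T0 := mul_star_self_nonneg T
  have lT : Le (T * star T) E := hT ▸ pd.mul _
  have lD := (le_pp' T0 μ0).trans lT
  obtain ⟨D₂, D₁, d2, d1, l2, l1, o, cm, c21⟩ := hS.split (pp_nonneg _ _)
    (hS.ci.le (pp_nonneg _ _) hE hES lD) (cp_pp_pp T0 (by linarith : ν ^ 2 < 3 * ν ^ 2))
  obtain ⟨r₁, -, r11, r12⟩ := ex_sqrt d1
  obtain ⟨r₂, -, r21, r22⟩ := ex_sqrt d2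
  obtain ⟨y₀, hy₀⟩ : ∃ y₀, y₀ = β * (star T * ga (T * star T) (ν ^ 2) * r₂) := ⟨_, rfl⟩
  have e1 : p * w * y₀ = r₂ := by
    calc _ = T * star T * ga (T * star T) (ν ^ 2) * r₂ := by
          rw [hy₀]; nth_rewrite 4 [hT]; simp only [mul_assoc]
      _ = _ := by
          rw [← rp_eq T0 μ0]
          exact ((Dm.sqrt r21 r22).trans l2).unit (rp_pp T0 μ0)
  have Y0 := mul_star_self_nonneg y₀
  have lY : Le (y₀ * star y₀) F := hy₀ ▸ bd.mul _
  have YI : y₀ * star y₀ ∈ Id D₂ := (Id.ci _).mr _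
    (hy₀ ▸ (Id.ci _).ml _ ((Id.ci _).ml _ ((Dm.sqrt r21 r22).id d2)))
  have DI : D₂ ∈ Id (y₀ * star y₀) := by
    rw [← r22]
    exact (Id.ci _).ml _ (e1 ▸ (Id.ci _).ml _ ((Dm.self y₀).id Y0))
  obtain ⟨y, Y, y0, y1, yd, Y0', lY', yY, cm, -⟩ := (cm.trans_id d2 Y0 DI).shrink Y0
  have e2 : r₁ * (p * w) * y = 0 := yd.ann (by
    have := (Dm.sqrt r11 r12).orth (Dm.sqrt r21 r22) d2 (star_eq0 (sa d1) (sa d2) o)
    rw [r11] at this
    rw [← mul_assoc, mul_assoc r₁, e1, this, zero_mul])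
  have e2' : y * star w * p * r₁ = 0 := by
    simpa only [star_mul, sa y0, sp, r11, star_zero, mul_assoc] using congrArg star e2
  have s1p : star (1 - p) = 1 - p := by rw [star_sub, star_one, sp]
  have hσ : ‖(1 - p) * rp (T * star T) (ν ^ 2)‖ ≤ τ₁ := by
    have h1 := star_right_conjugate_le_conjugate (rp_le T0 μ0) (1 - p)
    have h2 := norm_of_le (u := star ((1 - p) * rp (T * star T) (ν ^ 2))) (y := star ((1 - p) * T))
      (inv_nonneg.2 ν0.le) (by
        rw [inv_pow]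
        simpa only [star_mul, star_star, sa (rp_nonneg T0 μ0), mul_assoc, mul_smul_comm,
          smul_mul_assoc] using h1)
    rw [norm_star, norm_star] at h2
    refine h2.trans ?_
    rw [inv_mul_le_iff₀ ν0, mul_comm]
    exact hp
  have ur : rp (T * star T) (ν ^ 2) * r₁ = r₁ := ((Dm.sqrt r11 r12).trans l1).unit (rp_pp T0 μ0)
  have ny := norm_le_one y0 y1
  have eR : ∀ ξ : A, star ξ * (star (y * star w) * (y * star w) + star (1 - p) * (1 - p)) * ξ =
      star (y * star w * ξ) * (y * star w * ξ) + star ((1 - p) * ξ) * ((1 - p) * ξ) := fun ξ => by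
    simp only [star_mul, mul_add, add_mul, mul_assoc]
  obtain ⟨E₁, E0, lE, w1, w2⟩ := win (add_nonneg P0 d1)
    ((IsSelfAdjoint.star_mul_self (y * star w)).add (IsSelfAdjoint.star_mul_self (1 - p)))
    (half_lt_self (pow_pos θ1 2))
  simp only [eR] at w1 w2
  have DE : D₁ ∈ Id E₁ := by
    rw [← r12]
    refine (Id.ci _).ml _ (w2 _ (Id.ci _) (Id.self _) r₁ 0 ((Dm.sqrt r11 r12).trans (.right P0))
      ((Id.ci _).zero (Id.self _)) ?_)
    have h1 : ‖y * star w * ((1 - p) * rp (T * star T) (ν ^ 2))‖ ≤ θ₁ / 2 := by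
      rw [← τM, mul_comm τ₁]
      refine (norm_mul_le _ _).trans (mul_le_mul ?_ hσ (norm_nonneg _) (by linarith))
      refine (norm_mul_le _ _).trans ((mul_le_of_le_one_left (norm_nonneg _) ny).trans ?_)
      rwa [norm_star]
    have h2 : ‖(1 - p) * rp (T * star T) (ν ^ 2)‖ ≤ θ₁ / 2 := hσ.trans (by nlinarith)
    have h3 := add_le_add (conj_le' h1 r₁) (conj_le' h2 r₁)
    have e3 : (1 - p) * rp (T * star T) (ν ^ 2) * r₁ = (1 - p) * r₁ := by rw [mul_assoc, ur]
    have e4 : y * star w * ((1 - p) * rp (T * star T) (ν ^ 2)) * r₁ = y * star w * r₁ := by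
      rw [mul_assoc, e3, sub_mul, one_mul, mul_sub, ← mul_assoc _ p, e2', sub_zero]
    rw [e3, e4, ← add_smul] at h3
    rw [add_zero]
    convert h3 using 2
    ring
  have yE : y ∈ Id E₁ := Id.trans (Id.trans (Id.trans (yd.id Y0) YI) (c21.id d1)) DE
  have PE : P ∈ Id E₁ := by
    obtain ⟨r, -, r1, r2⟩ := ex_sqrt P0
    rw [← r2]
    refine (Id.ci _).ml _ (w2 _ (Id.ci _) (Id.self _) r _ ((Dm.sqrt r1 r2).trans (.left d1))
      ((Id.ci _).ml (star (y * star w * r)) ((Id.ci _).mr r ((Id.ci _).mr (star w) yE))) ?_)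
    rw [sub_mul, one_mul, (Dm.sqrt r1 r2).unit pP, sub_self, mul_zero, add_zero]
    exact le_add_of_nonneg_left (smul_nonneg (by positivity) (star_mul_self_nonneg r))
  obtain ⟨e, E', e0, e1', ed, E0', lE', eE, hk, -⟩ := (hk.trans_id P0 E0 PE).shrink E0
  have ne := norm_le_one e0 e1'
  have n1 : ‖e * w * y‖ ≤ θ₁ := by
    have := norm_of_le θ1.le ((le_add_of_nonneg_right (star_mul_self_nonneg _)).trans (w1 e ed))
    rw [← norm_star, star_mul, star_mul, star_star, sa e0, sa y0, ← mul_assoc] at this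
    exact this.trans (mul_le_of_le_one_right θ1.le ne)
  have n2 : ‖e * (1 - p)‖ ≤ θ₁ := by
    have := norm_of_le θ1.le ((le_add_of_nonneg_left (star_mul_self_nonneg _)).trans (w1 e ed))
    rw [← norm_star, star_mul, s1p, sa e0] at this
    exact this.trans (mul_le_of_le_one_right θ1.le ne)
  obtain ⟨F', F0, lF, nF, w3⟩ := winZ hF (e * w) (half_pos hθ).le (half_lt_self hθ)
  have YF : Y ∈ Id F' := by
    refine w3 _ (Id.ci _) (Id.self _) Y 0 ((lY'.trans lY).dm Y0') ((Id.ci _).zero (Id.self _)) ?_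
    have := conj_le' (n1.trans (by nlinarith : θ₁ ≤ θ / 2)) Y
    rwa [mul_assoc (e * w), yY, ← add_zero (_ • _)] at this
  have qF : pp (star T * T) (4 * ν ^ 2) ∈ Id F' := Id.trans (Id.trans (xx T μ0) (cm.id Y0')) YF
  have bF : β₀ ∈ Id F' := by
    refine w3 _ (Id.ci _) (Id.self _) β₀ _ (bl.dm b00)
      ((Id.ci _).smul 2 ((Id.ci _).mr β₀ ((Id.ci _).ml (star β₀) qF))) ?_
    have e5 : e * w * β₀ = e * (T * β₀) + e * (1 - p) * w * β₀ := by
      rw [hT, mul_assoc p, mul_assoc w, bb]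
      noncomm_ring
    have h1 : ‖e * (1 - p) * w‖ ≤ θ / 4 := by
      rw [← θM]
      exact (norm_mul_le _ _).trans (mul_le_mul n2 Mw (norm_nonneg _) θ1.le)
    have h2 := conj_le' h1 β₀
    have h3 := conj_le' ne (T * β₀)
    have h4 := star_left_conjugate_le_conjugate (le_pp (star_mul_self_nonneg T) (4 * ν ^ 2)) β₀
    rw [mul_add, add_mul, mul_smul_comm, mul_one, smul_mul_assoc] at h4
    rw [one_pow, one_smul, star_mul T, mul_assoc, ← mul_assoc (star T), ← mul_assoc (star β₀)] at h3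
    rw [e5]
    refine (add_sq_le _ _).trans ((add_le_add (smul_mono zero_le_two (h3.trans h4))
      (smul_mono zero_le_two h2)).trans (le_of_eq ?_))
    rw [hν]
    module
  refine ⟨E', F', E0', F0, lE'.trans (lE.trans (lP.add (l1.trans lD))), lF, hk.id E0',
    Id.trans (hl.id b00) bF, fun x hx z hz => ?_⟩
  have e6 : star x * w * z = star x * (e * w * z) := by
    conv_lhs => rw [← hx.unit eE, star_mul, sa e0]
    simp only [mul_assoc]
  rw [e6, mul_comm θ, mul_assoc ‖x‖]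
  refine (norm_mul_le _ _).trans ?_
  rw [norm_star]
  exact mul_le_mul_of_nonneg_left (nF z hz) (norm_nonneg _)

end Crest.Agent.R110w
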