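import Crest.Agent.R110w.C

/-! Row 110 (window version): averaging over orthogonal copies. -/

set_option autoImplicit false
set_option linter.unusedSectionVars false

namespace Crest.Agent.R110w

variable {A : Type*} [CStarAlgebra A] [PartialOrder A] [StarOrderedRing A]

theorem norm_emb {x k : A} {δ : ℝ} (hδ : δ ≤ 1) (h : ‖star x * x - k‖ ≤ δ) : ‖x‖ ≤ ‖k‖ + 1 := by
  have h1 := norm_add_le (star x * x - k) k
  rw [sub_add_cancel, CStarRing.norm_star_mul_self] at h1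
  nlinarith [norm_nonneg k, norm_nonneg x]

/-- the state after `n` copies -/
def St (w A₀ B₀ k l : A) (δ θ : ℝ) (n : ℕ) : Prop :=
  ∃ x D G Fo Fr : A, Dm x A₀ ∧ ‖star x * x - (n : ℝ) • k‖ ≤ n * δ ∧ 0 ≤ D ∧ Le D A₀ ∧
    star x * D = 0 ∧ Cp G D ∧ k ∈ Id G ∧ 0 ≤ Fo ∧ 0 ≤ Fr ∧ Le Fo B₀ ∧ Le Fr B₀ ∧ Fo ∈ Id G ∧
    Cp l (Fo + Fr) ∧ NI (star x * w) Fo ((‖k‖ + 1) * ‖w‖ + n * θ) ∧ NI (star x * w) Fr (n * θ)

theorem Ctx.step {S : Set A} (hS : Ctx S) {w A₀ B₀ k l : A} (hA : 0 ≤ A₀) (hAS : A₀ ∈ S)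
    (hk : 0 ≤ k) {δ θ : ℝ} (hδ : 0 < δ) (hδ1 : δ ≤ 1) (hθ : 0 < θ) {n : ℕ}
    (h : St w A₀ B₀ k l δ θ n) : St w A₀ B₀ k l δ θ (n + 1) := by
  obtain ⟨x, D, G, Fo, Fr, xd, hx, D0, lD, xD, cG, kG, o0, r0, lo, lr, oG, cl, no, nr⟩ := h
  have M0 : 0 < ‖k‖ + 1 := by positivity
  obtain ⟨G', D', g0, d0, lG, lD', o, cG', cD'⟩ := hS.split D0 (hS.ci.le D0 hA hAS lD) cG
  obtain ⟨l₁, l₂, p1, p2, c1, c2, c3⟩ := cl.two o0 r0
  obtain ⟨E, F, E0, F0, lE, lF, GE, lF', ni⟩ := hS.cont g0 (hS.ci.le g0 hA hAS (lG.trans lD)) o0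
    cG' oG c1 w (θ := θ / 2 / (‖k‖ + 1)) (by positivity)
  obtain ⟨s, sd, hs⟩ := (hS.pi E (hS.ci.le E0 hA hAS ((lE.trans lG).trans lD)) E0).embed' E0 hk
    (Id.trans kG GE) hδ
  have ns := norm_emb hδ1 hs
  obtain ⟨F', g, F0', q0, lF'', lg, ni', gI, FI⟩ := cut r0 (star s * w) hθ
  have sG : Dm s G' := sd.trans lE
  have gG : g ∈ Id G' := Id.trans gI ((Id.ci _).mr w ((Id.ci _).star (sG.id g0)))
  have e : star (x + s) * w = star x * w + star s * w := by rw [star_add, add_mul]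
  have n1 : NI (star (x + s) * w) F ((‖k‖ + 1) * ‖w‖ + n * θ + θ / 2) := by
    rw [e]
    refine (no.le lF).add ((ni s sd).mono ?_)
    rw [div_mul_eq_mul_div, div_le_iff₀ M0]
    exact mul_le_mul_of_nonneg_left ns (by positivity)
  have n2 : NI (star (x + s) * w) g ((‖k‖ + 1) * ‖w‖ + n * θ + θ / 2) := by
    rw [e]
    refine ((nr.le lg).add (NI.triv _ _)).mono ?_
    have := norm_mul_le (star s) w
    rw [norm_star] at this
    nlinarith [norm_nonneg w]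
  obtain ⟨F₂, f0, lF₂, n3, i1, i2⟩ := merge F0 q0 (c' := (‖k‖ + 1) * ‖w‖ + (n + 1 : ℕ) * θ)
    (by positivity) (by push_cast; linarith) n1 n2
  have xs : star x * s = 0 := (sG.trans lG).ann xD
  have sx : star s * x = 0 := by simpa only [star_mul, star_star, star_zero] using congrArg star xs
  have ff := add_nonneg f0 F0'
  have j1 : F₂ ∈ Id (F₂ + F') := (Le.left F0').id f0 ff
  have j2 : F' ∈ Id (F₂ + F') := (Le.right f0).id F0' ff
  refine ⟨x + s, D', G', F₂, F', xd.add ((sG.trans lG).trans lD), ?_, d0, lD'.trans lD, ?_, cD',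
    Id.trans kG (cG'.id g0), f0, F0', lF₂.trans ((lF.trans lo).add (lg.trans lr)), lF''.trans lr,
    ?_, ?_, n3, ?_⟩
  · have e2 : star (x + s) * (x + s) - ((n + 1 : ℕ) : ℝ) • k =
        (star x * x - (n : ℝ) • k) + (star s * s - k) := by
      rw [star_add, add_mul, mul_add, mul_add, xs, sx]
      push_cast
      module
    rw [e2]
    refine (norm_add_le _ _).trans ?_
    push_cast
    linarith
  · rw [star_add, add_mul, (lD'.dm d0).ann xD, zero_add]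
    exact sG.orth (Dm.refl d0) d0 o
  · exact (Id.ci _).le f0 (add_nonneg F0 q0) ((Id.ci _).add
      (Id.trans (Id.trans (lF.id F0 o0) oG) (cG'.id g0)) gG) lF₂
  · refine c3.trans_id (add_nonneg p1 p2) ff ((Id.ci _).add (Id.trans (Id.trans lF' i1) j1) ?_)
    exact Id.trans (Id.trans (c2.id r0) FI) ((Id.ci _).add j2 (Id.trans i2 j1))
  · rw [e]
    refine ((nr.le lF'').add ni').mono (le_of_eq ?_)
    push_cast
    ring

theorem Ctx.main {S : Set A} (hS : Ctx S) {A₀ B₀ k l : A} (hA : 0 ≤ A₀) (hAS : A₀ ∈ S)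
    (hB : 0 ≤ B₀) (hBS : B₀ ∈ S) (hk : 0 ≤ k) (hl : 0 ≤ l) (ck : Cp k A₀) (cl : Cp l B₀) (w : A)
    {ε : ℝ} (hε : 0 < ε) : ∃ x y : A, Dm x A₀ ∧ Dm y B₀ ∧ ‖star x * x - k‖ ≤ ε ∧
      ‖star y * y - l‖ ≤ ε ∧ ‖star x * w * y‖ ≤ ε := by
  obtain ⟨K, hK⟩ : ∃ K, K = (‖k‖ + 1) * ‖w‖ := ⟨_, rfl⟩
  have K0 : 0 ≤ K := by rw [hK]; positivity
  obtain ⟨m, hm⟩ := exists_nat_gt ((K + 2) * (‖l‖ + 1) / ε)
  have m0 : (0 : ℝ) < m := lt_of_le_of_lt (by positivity) hm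
  have hδ : 0 < min ε 1 := lt_min hε one_pos
  have hθ : (0 : ℝ) < ((m * m : ℕ) : ℝ)⁻¹ := by push_cast; positivity
  have all : ∀ n, St w A₀ B₀ k l (min ε 1) ((m * m : ℕ) : ℝ)⁻¹ n := fun n => by
    induction n with
    | zero =>
        refine ⟨0, A₀, k, 0, B₀, ⟨0, le_rfl, by simp⟩, by simp, hA, Le.rfl, by simp, ck, Id.self k,
          le_rfl, hB, ⟨0, le_rfl, by simp⟩, Le.rfl, (Id.ci _).zero (Id.self k), by rwa [zero_add],
          fun y _ => ?_, fun y _ => ?_⟩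
        · simp only [star_zero, zero_mul, norm_zero]; positivity
        · simp
    | succ n ih => exact hS.step hA hAS hk hδ (min_le_right _ _) hθ ih
  obtain ⟨x, D, G, Fo, Fr, xd, hx, -, -, -, -, -, o0, r0, lo, lr, -, cl, no, nr⟩ := all (m * m)
  rw [mul_inv_cancel₀ (by push_cast; positivity)] at no nr
  rw [← hK] at no
  obtain ⟨F, f0, lF, n3, i1, i2⟩ := merge o0 r0 (c' := K + 2) (by positivity) (by linarith) no
    (nr.mono (by linarith))
  have lF' := lF.trans (lo.add lr)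
  obtain ⟨y, yd, hy⟩ := (hS.pi F (hS.ci.le f0 hB hBS lF') f0).embed' f0 hl
    (Id.trans (cl.id (add_nonneg o0 r0)) ((Id.ci _).add i1 i2)) hδ
  have ny := norm_emb (min_le_right _ _) hy
  have mi : 0 < (m : ℝ)⁻¹ := inv_pos.2 m0
  refine ⟨(m : ℝ)⁻¹ • x, y, ?_, yd.trans lF', ?_, hy.trans (min_le_left _ _), ?_⟩
  · simpa only [mul_smul_comm, mul_one] using xd.mul ((m : ℝ)⁻¹ • (1 : A))
  · have e : star ((m : ℝ)⁻¹ • x) * ((m : ℝ)⁻¹ • x) - k =
        ((m : ℝ)⁻¹ * (m : ℝ)⁻¹) • (star x * x - ((m * m : ℕ) : ℝ) • k) := by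
      rw [star_smul, star_trivial, smul_mul_smul_comm, smul_sub, smul_smul]
      congr 1
      push_cast
      rw [show (m : ℝ)⁻¹ * (m : ℝ)⁻¹ * (m * m) = 1 by field_simp, one_smul]
    rw [e, norm_smul, Real.norm_eq_abs, abs_of_pos (mul_pos mi mi)]
    refine (mul_le_mul_of_nonneg_left hx (mul_pos mi mi).le).trans ?_
    push_cast
    rw [← mul_assoc, show (m : ℝ)⁻¹ * (m : ℝ)⁻¹ * (m * m) = 1 by field_simp, one_mul]
    exact min_le_left _ _
  · rw [star_smul, star_trivial, smul_mul_assoc, smul_mul_assoc, norm_smul, Real.norm_eq_abs,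
      abs_of_pos mi, inv_mul_le_iff₀ m0]
    rw [div_lt_iff₀ hε] at hm
    exact (n3 y yd).trans ((mul_le_mul_of_nonneg_left ny (by positivity)).trans hm.le)

theorem half_conj {a x : A} (ha : 0 ≤ a) {η : ℝ} (hη : 0 < η) {g : A} (hg : IsSelfAdjoint g)
    (e : g * a * g = rp a η) (hx : Dm x (pp a η)) {ε : ℝ}
    (h : ‖star x * x - pp a (2 * η)‖ ≤ ε) : ‖star (g * x) * a * (g * x) - a‖ ≤ ε + 2 * η := by
  have e1 : star (g * x) * a * (g * x) = star x * x := by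
    calc _ = star x * (g * a * g * x) := by simp only [star_mul, hg.star_eq, mul_assoc]
      _ = _ := by rw [e, hx.unit (rp_pp ha hη)]
  have e2 : star x * x - a = (star x * x - pp a (2 * η)) - (a - pp a (2 * η)) := by abel
  rw [e1, e2]
  exact (norm_sub_le _ _).trans (add_le_add h (norm_sub_pp ha (by positivity)))

theorem Ctx.final {S : Set A} (hS : Ctx S) {a b : A} (ha : 0 ≤ a) (haS : a ∈ S) (hb : 0 ≤ b)
    (hbS : b ∈ S) (c : A) {ε : ℝ} (hε : 0 < ε) : ∃ s ∈ S, ∃ t ∈ S, ‖star s * a * s - a‖ < ε ∧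
      ‖star t * b * t - b‖ < ε ∧ ‖star s * c * t‖ < ε := by
  have hη : 0 < ε / 4 := by positivity
  obtain ⟨g, g1, g2⟩ := ex_half ha hη
  obtain ⟨g', g1', g2'⟩ := ex_half hb hη
  have h1 := hS.ci.le (pp_nonneg _ _) ha haS (le_pp' ha hη)
  have h2 := hS.ci.le (pp_nonneg _ _) hb hbS (le_pp' hb hη)
  have lt : ε / 4 < 2 * (ε / 4) := by linarith
  obtain ⟨x, y, xd, yd, e1, e2, e3⟩ := hS.main (pp_nonneg _ _) h1 (pp_nonneg _ _) h2
    (pp_nonneg _ _) (pp_nonneg _ _) (cp_pp_pp ha lt) (cp_pp_pp hb lt) (g * c * g') hη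
  refine ⟨g * x, hS.ci.ml g (hS.ci.dm (pp_nonneg _ _) h1 xd), g' * y,
    hS.ci.ml g' (hS.ci.dm (pp_nonneg _ _) h2 yd), (half_conj ha hη g1 g2 xd e1).trans_lt (by linarith),
    (half_conj hb hη g1' g2' yd e2).trans_lt (by linarith), ?_⟩
  have : star (g * x) * c * (g' * y) = star x * (g * c * g') * y := by
    simp only [star_mul, g1.star_eq, mul_assoc]
  rw [this]
  exact e3.trans_lt (by linarith)

end Crest.Agent.R110w
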